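/-
S0175 team project (coordinator helper32), package "pointwise inequality" (helper31).
Part 1: the tangent-line inequality for `t ↦ t ^ (-(s/2))` in the form used for the Riesz cost,
with its equality case.
-/
import Mathlib

set_option autoImplicit false

namespace Crest.Agent.Helper31.Riesz

/-- Two-term weighted AM-GM: equality case. -/
theorem amgm2_eq_iff {w₁ w₂ p₁ p₂ : ℝ} (hw₁ : 0 < w₁) (hw₂ : 0 < w₂) (hp₁ : 0 ≤ p₁)
    (hp₂ : 0 ≤ p₂) (hw : w₁ + w₂ = 1) :
    p₁ ^ w₁ * p₂ ^ w₂ = w₁ * p₁ + w₂ * p₂ ↔ p₁ = p₂ := by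
  have h := Real.geom_mean_eq_arith_mean_weighted_iff_of_pos (Finset.univ : Finset (Fin 2))
    ![w₁, w₂] ![p₁, p₂] (by intro i _; fin_cases i <;> simpa)
    (by simp [Fin.sum_univ_two, hw]) (by intro i _; fin_cases i <;> simpa)
  simp only [Fin.prod_univ_two, Fin.sum_univ_two, Matrix.cons_val_zero, Matrix.cons_val_one,
    Finset.mem_univ, forall_true_left] at h
  rw [h]
  constructor
  · intro h'; exact h' 0 1
  · intro h' j k
    fin_cases j <;> fin_cases k <;> simp [h']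

/-- **Tangent-line inequality** for the Riesz cost: for `a, t > 0`,
`(1 + s/2) a^(s/(s+2)) - (s/2) a t ≤ t^(-(s/2))`. Here `t` is a squared distance and the right
side is `dist ^ (-s)`; the left side is the tangent line at `t₀ = a^(-2/(s+2))`. -/
theorem tangent_le {s a t : ℝ} (hs : 0 < s) (ha : 0 < a) (ht : 0 < t) :
    (1 + s / 2) * a ^ (s / (s + 2)) - s / 2 * a * t ≤ t ^ (-(s / 2)) := by
  have hs2 : 0 < s + 2 := by linarith
  have hw : 2 / (s + 2) + s / (s + 2) = 1 := by field_simp; ring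
  have hc : (0 : ℝ) < 1 + s / 2 := by positivity
  have hp₁ : 0 ≤ (1 + s / 2) * t ^ (-(s / 2)) := by positivity
  have hp₂ : 0 ≤ (1 + s / 2) * (a * t) := by positivity
  have key := Real.geom_mean_le_arith_mean2_weighted (w₁ := 2 / (s + 2)) (w₂ := s / (s + 2))
    (by positivity) (by positivity) hp₁ hp₂ hw
  have e1 : ((1 + s / 2) * t ^ (-(s / 2))) ^ (2 / (s + 2)) * ((1 + s / 2) * (a * t)) ^ (s / (s + 2))
      = (1 + s / 2) * a ^ (s / (s + 2)) := by
    rw [Real.mul_rpow hc.le (by positivity), Real.mul_rpow hc.le (by positivity),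
      Real.mul_rpow ha.le ht.le, ← Real.rpow_mul ht.le]
    have h1 : (1 + s / 2) ^ (2 / (s + 2)) * (1 + s / 2) ^ (s / (s + 2)) = 1 + s / 2 := by
      rw [← Real.rpow_add hc, hw, Real.rpow_one]
    have h2 : t ^ (-(s / 2) * (2 / (s + 2))) * t ^ (s / (s + 2)) = 1 := by
      rw [← Real.rpow_add ht]
      have : -(s / 2) * (2 / (s + 2)) + s / (s + 2) = 0 := by field_simp; ring
      rw [this, Real.rpow_zero]
    calc (1 + s / 2) ^ (2 / (s + 2)) * t ^ (-(s / 2) * (2 / (s + 2)))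
          * ((1 + s / 2) ^ (s / (s + 2)) * (a ^ (s / (s + 2)) * t ^ (s / (s + 2))))
        = ((1 + s / 2) ^ (2 / (s + 2)) * (1 + s / 2) ^ (s / (s + 2)))
          * (t ^ (-(s / 2) * (2 / (s + 2))) * t ^ (s / (s + 2))) * a ^ (s / (s + 2)) := by ring
      _ = (1 + s / 2) * a ^ (s / (s + 2)) := by rw [h1, h2]; ring
  have e2 : 2 / (s + 2) * ((1 + s / 2) * t ^ (-(s / 2))) + s / (s + 2) * ((1 + s / 2) * (a * t))
      = t ^ (-(s / 2)) + s / 2 * a * t := by
    field_simp; ring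
  rw [e1, e2] at key
  linarith

/-- Equality case of `tangent_le`. -/
theorem tangent_eq_iff {s a t : ℝ} (hs : 0 < s) (ha : 0 < a) (ht : 0 < t) :
    (1 + s / 2) * a ^ (s / (s + 2)) - s / 2 * a * t = t ^ (-(s / 2)) ↔
      t = a ^ (-(2 / (s + 2))) := by
  have hs2 : 0 < s + 2 := by linarith
  have hw : 2 / (s + 2) + s / (s + 2) = 1 := by field_simp; ring
  have hc : (0 : ℝ) < 1 + s / 2 := by positivity
  have hp₁ : 0 ≤ (1 + s / 2) * t ^ (-(s / 2)) := by positivity
  have hp₂ : 0 ≤ (1 + s / 2) * (a * t) := by positivity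
  have key := amgm2_eq_iff (w₁ := 2 / (s + 2)) (w₂ := s / (s + 2))
    (by positivity) (by positivity) hp₁ hp₂ hw
  have e1 : ((1 + s / 2) * t ^ (-(s / 2))) ^ (2 / (s + 2)) * ((1 + s / 2) * (a * t)) ^ (s / (s + 2))
      = (1 + s / 2) * a ^ (s / (s + 2)) := by
    rw [Real.mul_rpow hc.le (by positivity), Real.mul_rpow hc.le (by positivity),
      Real.mul_rpow ha.le ht.le, ← Real.rpow_mul ht.le]
    have h1 : (1 + s / 2) ^ (2 / (s + 2)) * (1 + s / 2) ^ (s / (s + 2)) = 1 + s / 2 := by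
      rw [← Real.rpow_add hc, hw, Real.rpow_one]
    have h2 : t ^ (-(s / 2) * (2 / (s + 2))) * t ^ (s / (s + 2)) = 1 := by
      rw [← Real.rpow_add ht]
      have : -(s / 2) * (2 / (s + 2)) + s / (s + 2) = 0 := by field_simp; ring
      rw [this, Real.rpow_zero]
    calc (1 + s / 2) ^ (2 / (s + 2)) * t ^ (-(s / 2) * (2 / (s + 2)))
          * ((1 + s / 2) ^ (s / (s + 2)) * (a ^ (s / (s + 2)) * t ^ (s / (s + 2))))
        = ((1 + s / 2) ^ (2 / (s + 2)) * (1 + s / 2) ^ (s / (s + 2)))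
          * (t ^ (-(s / 2) * (2 / (s + 2))) * t ^ (s / (s + 2))) * a ^ (s / (s + 2)) := by ring
      _ = (1 + s / 2) * a ^ (s / (s + 2)) := by rw [h1, h2]; ring
  have e2 : 2 / (s + 2) * ((1 + s / 2) * t ^ (-(s / 2))) + s / (s + 2) * ((1 + s / 2) * (a * t))
      = t ^ (-(s / 2)) + s / 2 * a * t := by
    field_simp; ring
  rw [e1, e2] at key
  -- `key : (1 + s/2) a^γ = t^(-(s/2)) + s/2 a t ↔ (1 + s/2) t^(-(s/2)) = (1 + s/2) (a t)`
  have h3 : ((1 + s / 2) * t ^ (-(s / 2)) = (1 + s / 2) * (a * t)) ↔ t = a ^ (-(2 / (s + 2))) := by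
    rw [mul_right_inj' hc.ne']
    constructor
    · intro h
      -- t^(-(s/2)) = a t  ⟹  t^(-(s+2)/2) = a
      have h4 : t ^ (-((s + 2) / 2)) = a := by
        have : t ^ (-((s + 2) / 2)) = t ^ (-(s / 2)) * t ^ (-1 : ℝ) := by
          rw [← Real.rpow_add ht]; congr 1; ring
        rw [this, h, Real.rpow_neg_one]
        field_simp
      rw [← h4, ← Real.rpow_mul ht.le]
      have : -((s + 2) / 2) * -(2 / (s + 2)) = 1 := by field_simp
      rw [this, Real.rpow_one]
    · intro h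
      have h4 : a = t ^ (-((s + 2) / 2)) := by
        rw [h, ← Real.rpow_mul ha.le]
        have : -(2 / (s + 2)) * -((s + 2) / 2) = 1 := by field_simp
        rw [this, Real.rpow_one]
      rw [h4, ← Real.rpow_add_one ht.ne']
      congr 1; ring
  rw [← h3, ← key]
  constructor
  · intro h; linarith
  · intro h; linarith

end Crest.Agent.Helper31.Riesz
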