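/-
S0175 team project (coordinator helper32), package "pointwise inequality + equality case"
(helper31).  Model-free core.

Setting: a normed group `E` (the ambient space), two real inner product spaces `P` ("plane part")
and `R` ("rest"), and two maps `pP : E → P`, `pR : E → R` with
`‖x - y‖² = ‖pP x - pP y‖² + ‖pR x - pR y‖²` (`Split pP pR`).  No linearity is needed.

For `s > 0`, `δ ≥ 0`, `τ ∈ (0, 1/2)`:
* `uA pP pR s δ τ x = Kc s τ - (s/2)(1/τ - 2)‖pP x‖² - s(1+δ)(1-2τ)/(2τ+δ) ‖pR x‖²`,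
* `uB pP pR s δ y = -(s/2)(‖pP y‖² + (1+δ)‖pR y‖²)`,
* `pointwise_le : ofReal (uA x + uB y + uB z) ≤ tripleCost s (x, y, z)` for ALL `x y z`,
* `eq_case`: the equality case (five conditions), `eq_of_conditions`: the converse.
-/
import Mathlib
import Crest.Prelude.Def_MultiMarginal
import Crest.Agent.Helper31.Riesz.Tangent

set_option autoImplicit false

open scoped ENNReal InnerProductSpace
open Crest.AnalysisR.OT

namespace Crest.Agent.Helper31.Riesz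

/-! ### The cost in real terms -/

section Cost
variable {E : Type*} [NormedAddCommGroup E]

theorem sq_rpow_eq (x y : E) (s : ℝ) : (‖x - y‖ ^ 2) ^ (-(s / 2)) = ‖x - y‖ ^ (-s) := by
  rw [← Real.rpow_natCast, ← Real.rpow_mul (norm_nonneg _)]
  congr 1
  push_cast
  ring

theorem pairCost_of_ne {x y : E} (h : x ≠ y) (s : ℝ) :
    pairCost s x y = ENNReal.ofReal (‖x - y‖ ^ (-s)) := by
  unfold pairCost
  rw [ENNReal.ofReal_rpow_of_pos (norm_pos_iff.mpr (sub_ne_zero.mpr h))]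

theorem pairCost_self (x : E) {s : ℝ} (hs : 0 < s) : pairCost s x x = ⊤ := by
  unfold pairCost
  rw [sub_self, norm_zero, ENNReal.ofReal_zero, ENNReal.zero_rpow_of_neg (by linarith)]

theorem pairCost_ne_top_iff {x y : E} {s : ℝ} (hs : 0 < s) : pairCost s x y ≠ ⊤ ↔ x ≠ y := by
  constructor
  · rintro h rfl
    exact h (pairCost_self x hs)
  · intro h
    rw [pairCost_of_ne h]
    exact ENNReal.ofReal_ne_top

theorem pairCost_pos (x y : E) {s : ℝ} (hs : 0 < s) : 0 < pairCost s x y := by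
  by_cases h : x = y
  · subst h; rw [pairCost_self x hs]; exact ENNReal.zero_lt_top
  · rw [pairCost_of_ne h]
    exact ENNReal.ofReal_pos.mpr (Real.rpow_pos_of_pos (norm_pos_iff.mpr (sub_ne_zero.mpr h)) _)

theorem tripleCost_of_ne {x y z : E} (hxy : x ≠ y) (hxz : x ≠ z) (hyz : y ≠ z) (s : ℝ) :
    tripleCost s (x, y, z)
      = ENNReal.ofReal (‖x - y‖ ^ (-s) + ‖x - z‖ ^ (-s) + ‖y - z‖ ^ (-s)) := by
  unfold tripleCost
  simp only
  rw [pairCost_of_ne hxy, pairCost_of_ne hxz, pairCost_of_ne hyz,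
    ENNReal.ofReal_add (by positivity) (by positivity),
    ENNReal.ofReal_add (by positivity) (by positivity)]

theorem tripleCost_eq_top_of_not_distinct {x y z : E} {s : ℝ} (hs : 0 < s)
    (h : ¬ (x ≠ y ∧ x ≠ z ∧ y ≠ z)) : tripleCost s (x, y, z) = ⊤ := by
  unfold tripleCost
  simp only
  by_cases hxy : x = y
  · subst hxy; simp [pairCost_self x hs]
  by_cases hxz : x = z
  · subst hxz; simp [pairCost_self x hs]
  by_cases hyz : y = z
  · subst hyz; simp [pairCost_self y hs]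
  exact absurd ⟨hxy, hxz, hyz⟩ h

theorem tripleCost_ne_top_iff {x y z : E} {s : ℝ} (hs : 0 < s) :
    tripleCost s (x, y, z) ≠ ⊤ ↔ (x ≠ y ∧ x ≠ z ∧ y ≠ z) := by
  constructor
  · intro h
    by_contra h'
    exact h (tripleCost_eq_top_of_not_distinct hs h')
  · rintro ⟨hxy, hxz, hyz⟩
    rw [tripleCost_of_ne hxy hxz hyz]
    exact ENNReal.ofReal_ne_top

theorem tripleCost_pos (x y z : E) {s : ℝ} (hs : 0 < s) : 0 < tripleCost s (x, y, z) := by
  unfold tripleCost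
  simp only
  exact lt_of_lt_of_le (pairCost_pos y z hs) le_add_self

end Cost

/-! ### Quadratic identities -/

section Quad
variable {V : Type*} [NormedAddCommGroup V] [InnerProductSpace ℝ V]

theorem norm_add_add_smul_sq (u v w : V) (k : ℝ) :
    ‖u + v + k • w‖ ^ 2 = ‖u‖ ^ 2 + ‖v‖ ^ 2 + k ^ 2 * ‖w‖ ^ 2 + 2 * ⟪u, v⟫_ℝ
      + 2 * k * ⟪w, u⟫_ℝ + 2 * k * ⟪w, v⟫_ℝ := by
  rw [norm_add_sq_real, norm_add_sq_real, norm_smul, inner_add_left, real_inner_smul_right,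
    real_inner_smul_right, mul_pow, Real.norm_eq_abs, sq_abs, real_inner_comm w u,
    real_inner_comm w v]
  ring

/-- Plane part of the three-squares identity. -/
theorem plane_identity (s τ : ℝ) (hτ : τ ≠ 0) (a b c : V) :
    s / 2 * (1 / τ - 2) * ‖a‖ ^ 2 + s / 2 * (‖b‖ ^ 2 + ‖c‖ ^ 2)
      - s / 2 * (1 - 2 * τ) * (‖a - b‖ ^ 2 + ‖a - c‖ ^ 2) - s / 2 * τ * ‖b - c‖ ^ 2
    = s / 2 * τ * ‖b + c + ((1 - 2 * τ) / τ) • a‖ ^ 2 := by
  rw [norm_add_add_smul_sq, norm_sub_sq_real, norm_sub_sq_real, norm_sub_sq_real]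
  field_simp
  ring

/-- Rest part of the three-squares identity. -/
theorem rest_identity (s δ τ : ℝ) (hτ : 2 * τ + δ ≠ 0) (a b c : V) :
    s * (1 + δ) * (1 - 2 * τ) / (2 * τ + δ) * ‖a‖ ^ 2 + s / 2 * (1 + δ) * (‖b‖ ^ 2 + ‖c‖ ^ 2)
      - s / 2 * (1 - 2 * τ) * (‖a - b‖ ^ 2 + ‖a - c‖ ^ 2) - s / 2 * τ * ‖b - c‖ ^ 2
    = s / 4 * (2 * τ + δ) * ‖b + c + (2 * (1 - 2 * τ) / (2 * τ + δ)) • a‖ ^ 2
      + s * δ / 4 * ‖b - c‖ ^ 2 := by
  rw [norm_add_add_smul_sq, norm_sub_sq_real, norm_sub_sq_real, norm_sub_sq_real]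
  field_simp
  ring

end Quad

/-! ### The potentials and the pointwise inequality -/

section Main
variable {E P R : Type*} [NormedAddCommGroup E] [NormedAddCommGroup P] [InnerProductSpace ℝ P]
  [NormedAddCommGroup R] [InnerProductSpace ℝ R]

/-- The splitting hypothesis: squared distances in `E` are the sum of the squared distances of the
`P`-parts and of the `R`-parts. -/
def Split (pP : E → P) (pR : E → R) : Prop :=
  ∀ x y : E, ‖x - y‖ ^ 2 = ‖pP x - pP y‖ ^ 2 + ‖pR x - pR y‖ ^ 2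

/-- The constant term of the sum of the three tangent lines. -/
noncomputable def Kc (s τ : ℝ) : ℝ :=
  (1 + s / 2) * (2 * (1 - 2 * τ) ^ (s / (s + 2)) + τ ^ (s / (s + 2)))

/-- The apex potential with parameter `τ`. -/
noncomputable def uA (pP : E → P) (pR : E → R) (s δ τ : ℝ) (x : E) : ℝ :=
  Kc s τ - s / 2 * (1 / τ - 2) * ‖pP x‖ ^ 2
    - s * (1 + δ) * (1 - 2 * τ) / (2 * τ + δ) * ‖pR x‖ ^ 2

/-- The base potential. -/
noncomputable def uB (pP : E → P) (pR : E → R) (s δ : ℝ) (y : E) : ℝ :=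
  -(s / 2) * (‖pP y‖ ^ 2 + (1 + δ) * ‖pR y‖ ^ 2)

omit [NormedAddCommGroup E] [InnerProductSpace ℝ P] [InnerProductSpace ℝ R] in
theorem uB_nonpos (pP : E → P) (pR : E → R) {s δ : ℝ} (hs : 0 < s) (hδ : 0 ≤ δ) (y : E) :
    uB pP pR s δ y ≤ 0 := by
  unfold uB
  have : 0 ≤ ‖pP y‖ ^ 2 + (1 + δ) * ‖pR y‖ ^ 2 := by positivity
  nlinarith

theorem Kc_le {s τ : ℝ} (hs : 0 < s) (hτ : 0 < τ) (hτ' : τ < 1 / 2) :
    Kc s τ ≤ 3 * (1 + s / 2) := by
  unfold Kc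
  have h1 : (1 - 2 * τ) ^ (s / (s + 2)) ≤ 1 :=
    Real.rpow_le_one (by linarith) (by linarith) (by positivity)
  have h2 : τ ^ (s / (s + 2)) ≤ 1 := Real.rpow_le_one hτ.le (by linarith) (by positivity)
  have : (0 : ℝ) < 1 + s / 2 := by positivity
  nlinarith

omit [NormedAddCommGroup E] [InnerProductSpace ℝ P] [InnerProductSpace ℝ R] in
theorem uA_le (pP : E → P) (pR : E → R) {s δ τ : ℝ} (hs : 0 < s) (hτ : 0 < τ)
    (hτ' : τ < 1 / 2) (hδ : 0 ≤ δ) (x : E) : uA pP pR s δ τ x ≤ 3 * (1 + s / 2) := by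
  unfold uA
  have h1 := Kc_le hs hτ hτ'
  have h2 : 0 ≤ s / 2 * (1 / τ - 2) * ‖pP x‖ ^ 2 := by
    have : 0 ≤ 1 / τ - 2 := by
      rw [sub_nonneg, le_div_iff₀ hτ]; linarith
    positivity
  have h3 : 0 ≤ s * (1 + δ) * (1 - 2 * τ) / (2 * τ + δ) * ‖pR x‖ ^ 2 := by
    have : 0 ≤ 1 - 2 * τ := by linarith
    positivity
  linarith

variable {pP : E → P} {pR : E → R}

/-- **Three-squares identity.** -/
theorem three_squares (hsplit : Split pP pR) {s δ τ : ℝ} (hτ : 0 < τ) (hδ : 0 ≤ δ)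
    (x y z : E) :
    Kc s τ - s / 2 * (1 - 2 * τ) * (‖x - y‖ ^ 2 + ‖x - z‖ ^ 2) - s / 2 * τ * ‖y - z‖ ^ 2
      - (uA pP pR s δ τ x + uB pP pR s δ y + uB pP pR s δ z)
    = s / 2 * τ * ‖pP y + pP z + ((1 - 2 * τ) / τ) • pP x‖ ^ 2
      + s / 4 * (2 * τ + δ) * ‖pR y + pR z + (2 * (1 - 2 * τ) / (2 * τ + δ)) • pR x‖ ^ 2
      + s * δ / 4 * ‖pR y - pR z‖ ^ 2 := by
  have h1 := plane_identity s τ hτ.ne' (pP x) (pP y) (pP z)
  have h2 := rest_identity s δ τ (by positivity : 2 * τ + δ ≠ 0) (pR x) (pR y) (pR z)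
  rw [hsplit x y, hsplit x z, hsplit y z]
  unfold uA uB
  linarith

/-- Sum of the three tangent lines. -/
theorem tangent_sum_le {s τ : ℝ} (hs : 0 < s) (hτ : 0 < τ) (hτ' : τ < 1 / 2)
    {x y z : E} (hxy : x ≠ y) (hxz : x ≠ z) (hyz : y ≠ z) :
    Kc s τ - s / 2 * (1 - 2 * τ) * (‖x - y‖ ^ 2 + ‖x - z‖ ^ 2) - s / 2 * τ * ‖y - z‖ ^ 2
      ≤ ‖x - y‖ ^ (-s) + ‖x - z‖ ^ (-s) + ‖y - z‖ ^ (-s) := by
  have h1 := tangent_le hs (by linarith : (0 : ℝ) < 1 - 2 * τ)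
    (pow_pos (norm_pos_iff.mpr (sub_ne_zero.mpr hxy)) 2)
  have h2 := tangent_le hs (by linarith : (0 : ℝ) < 1 - 2 * τ)
    (pow_pos (norm_pos_iff.mpr (sub_ne_zero.mpr hxz)) 2)
  have h3 := tangent_le hs hτ (pow_pos (norm_pos_iff.mpr (sub_ne_zero.mpr hyz)) 2)
  rw [sq_rpow_eq] at h1 h2 h3
  unfold Kc
  linarith

/-- **Pointwise inequality with explicit gap** (real form, distinct points). -/
theorem pointwise_gap (hsplit : Split pP pR) {s δ τ : ℝ} (hs : 0 < s) (hτ : 0 < τ)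
    (hτ' : τ < 1 / 2) (hδ : 0 ≤ δ) {x y z : E} (hxy : x ≠ y) (hxz : x ≠ z) (hyz : y ≠ z) :
    uA pP pR s δ τ x + uB pP pR s δ y + uB pP pR s δ z
      + (s / 2 * τ * ‖pP y + pP z + ((1 - 2 * τ) / τ) • pP x‖ ^ 2
      + s / 4 * (2 * τ + δ) * ‖pR y + pR z + (2 * (1 - 2 * τ) / (2 * τ + δ)) • pR x‖ ^ 2
      + s * δ / 4 * ‖pR y - pR z‖ ^ 2)
      ≤ ‖x - y‖ ^ (-s) + ‖x - z‖ ^ (-s) + ‖y - z‖ ^ (-s) := by
  have h1 := tangent_sum_le hs hτ hτ' hxy hxz hyz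
  have h2 := three_squares hsplit (s := s) hτ hδ x y z
  linarith

/-- **Pointwise inequality** (real form, distinct points). -/
theorem pointwise_le_real (hsplit : Split pP pR) {s δ τ : ℝ} (hs : 0 < s) (hτ : 0 < τ)
    (hτ' : τ < 1 / 2) (hδ : 0 ≤ δ) {x y z : E} (hxy : x ≠ y) (hxz : x ≠ z) (hyz : y ≠ z) :
    uA pP pR s δ τ x + uB pP pR s δ y + uB pP pR s δ z
      ≤ ‖x - y‖ ^ (-s) + ‖x - z‖ ^ (-s) + ‖y - z‖ ^ (-s) := by
  have h1 := pointwise_gap hsplit hs hτ hτ' hδ hxy hxz hyz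
  have h2 : 0 ≤ s / 2 * τ * ‖pP y + pP z + ((1 - 2 * τ) / τ) • pP x‖ ^ 2
      + s / 4 * (2 * τ + δ) * ‖pR y + pR z + (2 * (1 - 2 * τ) / (2 * τ + δ)) • pR x‖ ^ 2
      + s * δ / 4 * ‖pR y - pR z‖ ^ 2 := by positivity
  linarith

/-- **Pointwise inequality**, in the form used for duality: for ALL triples. -/
theorem pointwise_le (hsplit : Split pP pR) {s δ τ : ℝ} (hs : 0 < s) (hτ : 0 < τ)
    (hτ' : τ < 1 / 2) (hδ : 0 ≤ δ) (x y z : E) :
    ENNReal.ofReal (uA pP pR s δ τ x + uB pP pR s δ y + uB pP pR s δ z)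
      ≤ tripleCost s (x, y, z) := by
  by_cases h : x ≠ y ∧ x ≠ z ∧ y ≠ z
  · obtain ⟨hxy, hxz, hyz⟩ := h
    rw [tripleCost_of_ne hxy hxz hyz]
    exact ENNReal.ofReal_le_ofReal (pointwise_le_real hsplit hs hτ hτ' hδ hxy hxz hyz)
  · rw [tripleCost_eq_top_of_not_distinct hs h]
    exact le_top

/-- The equality conditions for the triple `(x, y, z)` with apex `x` and parameter `τ`. -/
structure EqCond (pP : E → P) (pR : E → R) (s δ τ : ℝ) (x y z : E) : Prop where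
  dxy : ‖x - y‖ ^ 2 = (1 - 2 * τ) ^ (-(2 / (s + 2)))
  dxz : ‖x - z‖ ^ 2 = (1 - 2 * τ) ^ (-(2 / (s + 2)))
  dyz : ‖y - z‖ ^ 2 = τ ^ (-(2 / (s + 2)))
  plane : pP y + pP z = -((1 - 2 * τ) / τ) • pP x
  rest : pR y + pR z = -(2 * (1 - 2 * τ) / (2 * τ + δ)) • pR x
  restEq : 0 < δ → pR y = pR z

/-- **Equality case** (real form). -/
theorem eq_case_real (hsplit : Split pP pR) {s δ τ : ℝ} (hs : 0 < s) (hτ : 0 < τ)
    (hτ' : τ < 1 / 2) (hδ : 0 ≤ δ) {x y z : E} (hxy : x ≠ y) (hxz : x ≠ z) (hyz : y ≠ z)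
    (h : ‖x - y‖ ^ (-s) + ‖x - z‖ ^ (-s) + ‖y - z‖ ^ (-s)
      ≤ uA pP pR s δ τ x + uB pP pR s δ y + uB pP pR s δ z) :
    EqCond pP pR s δ τ x y z := by
  have ha : (0 : ℝ) < 1 - 2 * τ := by linarith
  have pxy := pow_pos (norm_pos_iff.mpr (sub_ne_zero.mpr hxy)) 2
  have pxz := pow_pos (norm_pos_iff.mpr (sub_ne_zero.mpr hxz)) 2
  have pyz := pow_pos (norm_pos_iff.mpr (sub_ne_zero.mpr hyz)) 2
  have h1 := tangent_le hs ha pxy
  have h2 := tangent_le hs ha pxz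
  have h3 := tangent_le hs hτ pyz
  rw [sq_rpow_eq] at h1 h2 h3
  have hid := three_squares hsplit (s := s) hτ hδ x y z
  have q1 : 0 ≤ s / 2 * τ * ‖pP y + pP z + ((1 - 2 * τ) / τ) • pP x‖ ^ 2 := by positivity
  have q2 : 0 ≤ s / 4 * (2 * τ + δ)
      * ‖pR y + pR z + (2 * (1 - 2 * τ) / (2 * τ + δ)) • pR x‖ ^ 2 := by positivity
  have q3 : 0 ≤ s * δ / 4 * ‖pR y - pR z‖ ^ 2 := by positivity
  have hK : Kc s τ = (1 + s / 2) * (1 - 2 * τ) ^ (s / (s + 2))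
      + (1 + s / 2) * (1 - 2 * τ) ^ (s / (s + 2)) + (1 + s / 2) * τ ^ (s / (s + 2)) := by
    unfold Kc; ring
  rw [hK] at hid
  -- all slacks vanish
  have e1 : (1 + s / 2) * (1 - 2 * τ) ^ (s / (s + 2)) - s / 2 * (1 - 2 * τ) * ‖x - y‖ ^ 2
      = ‖x - y‖ ^ (-s) := by linarith
  have e2 : (1 + s / 2) * (1 - 2 * τ) ^ (s / (s + 2)) - s / 2 * (1 - 2 * τ) * ‖x - z‖ ^ 2
      = ‖x - z‖ ^ (-s) := by linarith
  have e3 : (1 + s / 2) * τ ^ (s / (s + 2)) - s / 2 * τ * ‖y - z‖ ^ 2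
      = ‖y - z‖ ^ (-s) := by linarith
  have z1 : s / 2 * τ * ‖pP y + pP z + ((1 - 2 * τ) / τ) • pP x‖ ^ 2 = 0 := by linarith
  have z2 : s / 4 * (2 * τ + δ)
      * ‖pR y + pR z + (2 * (1 - 2 * τ) / (2 * τ + δ)) • pR x‖ ^ 2 = 0 := by linarith
  have z3 : s * δ / 4 * ‖pR y - pR z‖ ^ 2 = 0 := by linarith
  rw [← sq_rpow_eq] at e1 e2 e3
  refine ⟨(tangent_eq_iff hs ha pxy).mp e1, (tangent_eq_iff hs ha pxz).mp e2,
    (tangent_eq_iff hs hτ pyz).mp e3, ?_, ?_, ?_⟩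
  · have hc : s / 2 * τ ≠ 0 := by positivity
    have := (mul_eq_zero.mp z1).resolve_left hc
    have h0 : pP y + pP z + ((1 - 2 * τ) / τ) • pP x = 0 := by
      simpa using this
    rw [neg_smul]
    exact eq_neg_of_add_eq_zero_left h0
  · have hc : s / 4 * (2 * τ + δ) ≠ 0 := by positivity
    have := (mul_eq_zero.mp z2).resolve_left hc
    have h0 : pR y + pR z + (2 * (1 - 2 * τ) / (2 * τ + δ)) • pR x = 0 := by
      simpa using this
    rw [neg_smul]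
    exact eq_neg_of_add_eq_zero_left h0
  · intro hδ'
    have hc : s * δ / 4 ≠ 0 := by positivity
    have := (mul_eq_zero.mp z3).resolve_left hc
    have h0 : pR y - pR z = 0 := by simpa using this
    exact sub_eq_zero.mp h0

/-- **Equality case**, in the form used for duality. -/
theorem eq_case (hsplit : Split pP pR) {s δ τ : ℝ} (hs : 0 < s) (hτ : 0 < τ)
    (hτ' : τ < 1 / 2) (hδ : 0 ≤ δ) {x y z : E}
    (h : tripleCost s (x, y, z)
      ≤ ENNReal.ofReal (uA pP pR s δ τ x + uB pP pR s δ y + uB pP pR s δ z)) :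
    (x ≠ y ∧ x ≠ z ∧ y ≠ z) ∧ EqCond pP pR s δ τ x y z := by
  have hd : x ≠ y ∧ x ≠ z ∧ y ≠ z := by
    rw [← tripleCost_ne_top_iff hs]
    exact ne_top_of_le_ne_top ENNReal.ofReal_ne_top h
  refine ⟨hd, ?_⟩
  obtain ⟨hxy, hxz, hyz⟩ := hd
  rw [tripleCost_of_ne hxy hxz hyz, ENNReal.ofReal_le_ofReal_iff'] at h
  have hpos : 0 < ‖x - y‖ ^ (-s) + ‖x - z‖ ^ (-s) + ‖y - z‖ ^ (-s) := by
    have := Real.rpow_pos_of_pos (norm_pos_iff.mpr (sub_ne_zero.mpr hxy)) (-s)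
    have := Real.rpow_pos_of_pos (norm_pos_iff.mpr (sub_ne_zero.mpr hxz)) (-s)
    have := Real.rpow_pos_of_pos (norm_pos_iff.mpr (sub_ne_zero.mpr hyz)) (-s)
    positivity
  rcases h with h | h
  · exact eq_case_real hsplit hs hτ hτ' hδ hxy hxz hyz h
  · exact absurd h (not_le.mpr hpos)

/-- **Converse**: the equality conditions give equality (real form). -/
theorem eq_of_cond_real (hsplit : Split pP pR) {s δ τ : ℝ} (hs : 0 < s) (hτ : 0 < τ)
    (hτ' : τ < 1 / 2) (hδ : 0 ≤ δ) {x y z : E} (hc : EqCond pP pR s δ τ x y z)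
    (hR : pR y = pR z) :
    uA pP pR s δ τ x + uB pP pR s δ y + uB pP pR s δ z
      = ‖x - y‖ ^ (-s) + ‖x - z‖ ^ (-s) + ‖y - z‖ ^ (-s) := by
  have ha : (0 : ℝ) < 1 - 2 * τ := by linarith
  have pa : (0 : ℝ) < (1 - 2 * τ) ^ (-(2 / (s + 2))) := Real.rpow_pos_of_pos ha _
  have pb : (0 : ℝ) < τ ^ (-(2 / (s + 2))) := Real.rpow_pos_of_pos hτ _
  have pxy : 0 < ‖x - y‖ ^ 2 := by rw [hc.dxy]; exact pa
  have pxz : 0 < ‖x - z‖ ^ 2 := by rw [hc.dxz]; exact pa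
  have pyz : 0 < ‖y - z‖ ^ 2 := by rw [hc.dyz]; exact pb
  have e1 := (tangent_eq_iff hs ha pxy).mpr hc.dxy
  have e2 := (tangent_eq_iff hs ha pxz).mpr hc.dxz
  have e3 := (tangent_eq_iff hs hτ pyz).mpr hc.dyz
  rw [sq_rpow_eq] at e1 e2 e3
  have hid := three_squares hsplit (s := s) hτ hδ x y z
  have z1 : pP y + pP z + ((1 - 2 * τ) / τ) • pP x = 0 := by
    rw [hc.plane, neg_smul, neg_add_cancel]
  have z2 : pR y + pR z + (2 * (1 - 2 * τ) / (2 * τ + δ)) • pR x = 0 := by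
    rw [hc.rest, neg_smul, neg_add_cancel]
  have z3 : pR y - pR z = 0 := sub_eq_zero.mpr hR
  rw [z1, z2, z3] at hid
  simp only [norm_zero, ne_eq, OfNat.ofNat_ne_zero, not_false_eq_true, zero_pow, mul_zero,
    add_zero] at hid
  unfold Kc at hid
  linarith

/-- **Converse**: the equality conditions give equality (duality form). -/
theorem eq_of_cond (hsplit : Split pP pR) {s δ τ : ℝ} (hs : 0 < s) (hτ : 0 < τ)
    (hτ' : τ < 1 / 2) (hδ : 0 ≤ δ) {x y z : E} (hc : EqCond pP pR s δ τ x y z)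
    (hR : pR y = pR z) :
    tripleCost s (x, y, z)
      = ENNReal.ofReal (uA pP pR s δ τ x + uB pP pR s δ y + uB pP pR s δ z) := by
  have ha : (0 : ℝ) < 1 - 2 * τ := by linarith
  have pa : (0 : ℝ) < (1 - 2 * τ) ^ (-(2 / (s + 2))) := Real.rpow_pos_of_pos ha _
  have pb : (0 : ℝ) < τ ^ (-(2 / (s + 2))) := Real.rpow_pos_of_pos hτ _
  have hxy : x ≠ y := by
    rintro rfl
    have := hc.dxy
    rw [sub_self, norm_zero] at this
    simp at this
    linarith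
  have hxz : x ≠ z := by
    rintro rfl
    have := hc.dxz
    rw [sub_self, norm_zero] at this
    simp at this
    linarith
  have hyz : y ≠ z := by
    rintro rfl
    have := hc.dyz
    rw [sub_self, norm_zero] at this
    simp at this
    linarith
  rw [tripleCost_of_ne hxy hxz hyz, eq_of_cond_real hsplit hs hτ hτ' hδ hc hR]

/-- **Envelope**: if `x` is the apex of an equality triple for the parameter `τ₀`, then `τ₀`
maximises `τ ↦ uA τ x`. -/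
theorem uA_le_of_cond (hsplit : Split pP pR) {s δ τ₀ τ : ℝ} (hs : 0 < s) (hτ₀ : 0 < τ₀)
    (hτ₀' : τ₀ < 1 / 2) (hτ : 0 < τ) (hτ' : τ < 1 / 2) (hδ : 0 ≤ δ) {x y z : E}
    (hc : EqCond pP pR s δ τ₀ x y z) (hR : pR y = pR z) :
    uA pP pR s δ τ x ≤ uA pP pR s δ τ₀ x := by
  have ha : (0 : ℝ) < 1 - 2 * τ₀ := by linarith
  have pa : (0 : ℝ) < (1 - 2 * τ₀) ^ (-(2 / (s + 2))) := Real.rpow_pos_of_pos ha _
  have pb : (0 : ℝ) < τ₀ ^ (-(2 / (s + 2))) := Real.rpow_pos_of_pos hτ₀ _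
  have hxy : x ≠ y := by
    rintro rfl
    have := hc.dxy
    rw [sub_self, norm_zero] at this
    simp at this
    linarith
  have hxz : x ≠ z := by
    rintro rfl
    have := hc.dxz
    rw [sub_self, norm_zero] at this
    simp at this
    linarith
  have hyz : y ≠ z := by
    rintro rfl
    have := hc.dyz
    rw [sub_self, norm_zero] at this
    simp at this
    linarith
  have h1 := eq_of_cond_real hsplit hs hτ₀ hτ₀' hδ hc hR
  have h2 := pointwise_le_real hsplit (pP := pP) (pR := pR) hs hτ hτ' hδ hxy hxz hyz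
  linarith

end Main

end Crest.Agent.Helper31.Riesz
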