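/-
S0175 team project (coordinator helper32) — model-free contact geometry (helper31).

Continuation of `Pointwise.lean`, for a plane part with values in `ℂ`:
the equality conditions `EqCond` for a triple `(x, y, z)` with apex `x`, `pP x ≠ 0`, force the
two base vertices to be the two points
`(baseP κ (±ℓ) (pP x), ρ • pR x)`, `κ = (1-2τ)/τ`, `ℓ = τ^(-1/(s+2))`, `ρ = -(1-2τ)/(2τ+δ)`,
and force the apex equation; conversely these data give `EqCond`.
-/
import Mathlib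
import Crest.Prelude.Def_MultiMarginal
import Crest.Agent.Helper31.Riesz.Pointwise

set_option autoImplicit false

open scoped ENNReal
open Crest.AnalysisR.OT

namespace Crest.Agent.Helper31.Riesz

/-! ### Plane geometry in `ℂ` -/

/-- The plane part of a base vertex: `a ↦ a * (-(κ/2) + i ℓ / (2‖a‖))`; the other base vertex is
obtained with `-ℓ`. -/
noncomputable def baseP (κ ℓ : ℝ) (a : ℂ) : ℂ :=
  a * (⟨-(κ / 2), ℓ / (2 * ‖a‖)⟩ : ℂ)

theorem baseP_re (κ ℓ : ℝ) (a : ℂ) :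
    (baseP κ ℓ a).re = a.re * (-(κ / 2)) - a.im * (ℓ / (2 * ‖a‖)) := by
  simp [baseP]

theorem baseP_im (κ ℓ : ℝ) (a : ℂ) :
    (baseP κ ℓ a).im = a.re * (ℓ / (2 * ‖a‖)) + a.im * (-(κ / 2)) := by
  simp [baseP]

theorem norm_sq_re_im (z : ℂ) : ‖z‖ ^ 2 = z.re ^ 2 + z.im ^ 2 := by
  rw [Complex.sq_norm, Complex.normSq_apply]; ring

theorem baseP_add (κ ℓ : ℝ) (a : ℂ) : baseP κ ℓ a + baseP κ (-ℓ) a = -κ • a := by
  apply Complex.ext
  · simp only [Complex.add_re, baseP_re, Complex.real_smul, Complex.mul_re, Complex.ofReal_re,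
      Complex.ofReal_im]
    ring
  · simp only [Complex.add_im, baseP_im, Complex.real_smul, Complex.mul_im, Complex.ofReal_re,
      Complex.ofReal_im]
    ring

theorem norm_sub_baseP_sq (κ ℓ : ℝ) {a : ℂ} (ha : a ≠ 0) :
    ‖a - baseP κ ℓ a‖ ^ 2 = (1 + κ / 2) ^ 2 * ‖a‖ ^ 2 + ℓ ^ 2 / 4 := by
  have hN : 0 < ‖a‖ := norm_pos_iff.mpr ha
  have hN2 := norm_sq_re_im a
  rw [norm_sq_re_im (a - baseP κ ℓ a)]
  simp only [Complex.sub_re, Complex.sub_im, baseP_re, baseP_im]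
  have e : (a.re - (a.re * (-(κ / 2)) - a.im * (ℓ / (2 * ‖a‖)))) ^ 2
      + (a.im - (a.re * (ℓ / (2 * ‖a‖)) + a.im * (-(κ / 2)))) ^ 2
      = (1 + κ / 2) ^ 2 * (a.re ^ 2 + a.im ^ 2) + (ℓ / (2 * ‖a‖)) ^ 2 * (a.re ^ 2 + a.im ^ 2) := by
    ring
  rw [e, ← hN2]
  field_simp
  ring

theorem norm_baseP_sub_baseP_sq (κ ℓ : ℝ) {a : ℂ} (ha : a ≠ 0) :
    ‖baseP κ ℓ a - baseP κ (-ℓ) a‖ ^ 2 = ℓ ^ 2 := by
  have hN : 0 < ‖a‖ := norm_pos_iff.mpr ha
  have hN2 := norm_sq_re_im a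
  rw [norm_sq_re_im (baseP κ ℓ a - baseP κ (-ℓ) a)]
  simp only [Complex.sub_re, Complex.sub_im, baseP_re, baseP_im]
  have e : (a.re * (-(κ / 2)) - a.im * (ℓ / (2 * ‖a‖))
        - (a.re * (-(κ / 2)) - a.im * (-ℓ / (2 * ‖a‖)))) ^ 2
      + (a.re * (ℓ / (2 * ‖a‖)) + a.im * (-(κ / 2))
        - (a.re * (-ℓ / (2 * ‖a‖)) + a.im * (-(κ / 2)))) ^ 2
      = (ℓ / ‖a‖) ^ 2 * (a.re ^ 2 + a.im ^ 2) := by
    field_simp
    ring
  rw [e, ← hN2]
  field_simp

/-- **Plane rigidity**: two points `b, c` with prescribed sum `-κ a`, equidistant from `a ≠ 0`,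
at distance `ℓ` from each other, are the two base points (in one of the two orders). -/
theorem plane_contact {a b c : ℂ} {κ ℓ : ℝ} (ha : a ≠ 0) (hκ : κ ≠ -2)
    (hsum : b + c = -κ • a) (hd : ‖a - b‖ ^ 2 = ‖a - c‖ ^ 2) (hbc : ‖b - c‖ ^ 2 = ℓ ^ 2) :
    (b = baseP κ ℓ a ∧ c = baseP κ (-ℓ) a) ∨ (b = baseP κ (-ℓ) a ∧ c = baseP κ ℓ a) := by
  have hN : 0 < ‖a‖ := norm_pos_iff.mpr ha
  have hN2 := norm_sq_re_im a
  have h1 : b.re + c.re = -κ * a.re := by
    have := congrArg Complex.re hsum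
    simpa using this
  have h2 : b.im + c.im = -κ * a.im := by
    have := congrArg Complex.im hsum
    simpa using this
  rw [norm_sq_re_im, norm_sq_re_im] at hd
  rw [norm_sq_re_im] at hbc
  simp only [Complex.sub_re, Complex.sub_im] at hd hbc
  -- orthogonality of `b - c` and `a`
  have horth : a.re * (b.re - c.re) + a.im * (b.im - c.im) = 0 := by
    have h3 : (2 + κ) * (a.re * (b.re - c.re) + a.im * (b.im - c.im)) = 0 := by
      linear_combination (-1 : ℝ) * hd + (b.re - c.re) * h1 + (b.im - c.im) * h2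
    exact (mul_eq_zero.mp h3).resolve_left (by intro h; apply hκ; linarith)
  set r : ℝ := (a.re * (b.im - c.im) - a.im * (b.re - c.re)) / ‖a‖ ^ 2 with hr
  have hNne : ‖a‖ ^ 2 ≠ 0 := by positivity
  have hq1 : b.re - c.re = -r * a.im := by
    rw [hr]
    field_simp
    rw [hN2]
    linear_combination a.re * horth
  have hq2 : b.im - c.im = r * a.re := by
    rw [hr]
    field_simp
    rw [hN2]
    linear_combination a.im * horth
  have hrN : (r * ‖a‖) ^ 2 = ℓ ^ 2 := by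
    rw [mul_pow, hN2, ← hbc, hq1, hq2]
    ring
  rcases sq_eq_sq_iff_eq_or_eq_neg.mp hrN with h | h
  · left
    have hr' : r = ℓ / ‖a‖ := by field_simp; linarith
    constructor
    · apply Complex.ext
      · rw [baseP_re]
        have : b.re = (-κ * a.re + -r * a.im) / 2 := by linarith
        rw [this, hr']
        field_simp
        try ring
      · rw [baseP_im]
        have : b.im = (-κ * a.im + r * a.re) / 2 := by linarith
        rw [this, hr']
        field_simp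
        try ring
    · apply Complex.ext
      · rw [baseP_re]
        have : c.re = (-κ * a.re - -r * a.im) / 2 := by linarith
        rw [this, hr']
        field_simp
        try ring
      · rw [baseP_im]
        have : c.im = (-κ * a.im - r * a.re) / 2 := by linarith
        rw [this, hr']
        field_simp
        try ring
  · right
    have hr' : r = -ℓ / ‖a‖ := by field_simp; linarith
    constructor
    · apply Complex.ext
      · rw [baseP_re]
        have : b.re = (-κ * a.re + -r * a.im) / 2 := by linarith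
        rw [this, hr']
        field_simp
        try ring
      · rw [baseP_im]
        have : b.im = (-κ * a.im + r * a.re) / 2 := by linarith
        rw [this, hr']
        field_simp
        try ring
    · apply Complex.ext
      · rw [baseP_re]
        have : c.re = (-κ * a.re - -r * a.im) / 2 := by linarith
        rw [this, hr']
        field_simp
        try ring
      · rw [baseP_im]
        have : c.im = (-κ * a.im - r * a.re) / 2 := by linarith
        rw [this, hr']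
        field_simp
        try ring

/-! ### Contact triangles -/

section Contact
variable {E R : Type*} [NormedAddCommGroup E] [NormedAddCommGroup R] [InnerProductSpace ℝ R]
  {pP : E → ℂ} {pR : E → R}

/-- The length of the base of the contact triangle with parameter `τ`. -/
noncomputable def Lb (s τ : ℝ) : ℝ := τ ^ (-(1 / (s + 2)))

theorem Lb_pos {s τ : ℝ} (hτ : 0 < τ) : 0 < Lb s τ := Real.rpow_pos_of_pos hτ _

theorem Lb_sq {s τ : ℝ} (hτ : 0 < τ) : Lb s τ ^ 2 = τ ^ (-(2 / (s + 2))) := by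
  unfold Lb
  rw [← Real.rpow_natCast, ← Real.rpow_mul hτ.le]
  congr 1
  push_cast
  ring

/-- The apex equation: `x` is the apex of a contact triangle with parameter `τ`. -/
def ApexEq (pP : E → ℂ) (pR : E → R) (s δ τ : ℝ) (x : E) : Prop :=
  ‖pP x‖ ^ 2 / (4 * τ ^ 2) + ((1 + δ) / (2 * τ + δ)) ^ 2 * ‖pR x‖ ^ 2
    = (1 - 2 * τ) ^ (-(2 / (s + 2))) - τ ^ (-(2 / (s + 2))) / 4

theorem EqCond.symm {P : Type*} [NormedAddCommGroup P] [InnerProductSpace ℝ P] {pP : E → P}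
    {s δ τ : ℝ} {x y z : E} (h : EqCond pP pR s δ τ x y z) : EqCond pP pR s δ τ x z y where
  dxy := h.dxz
  dxz := h.dxy
  dyz := by rw [norm_sub_rev]; exact h.dyz
  plane := by rw [add_comm]; exact h.plane
  rest := by rw [add_comm]; exact h.rest
  restEq := fun hδ => (h.restEq hδ).symm

theorem rest_of_eqCond {P : Type*} [NormedAddCommGroup P] [InnerProductSpace ℝ P] {pP : E → P}
    {s δ τ : ℝ} {x y z : E} (hδ : 0 < δ) (hc : EqCond pP pR s δ τ x y z) :
    pR y = -((1 - 2 * τ) / (2 * τ + δ)) • pR x ∧ pR z = -((1 - 2 * τ) / (2 * τ + δ)) • pR x := by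
  have hR := hc.restEq hδ
  have h2 : (2 : ℝ) • pR y = (2 : ℝ) • (-((1 - 2 * τ) / (2 * τ + δ)) • pR x) := by
    rw [two_smul, smul_smul]
    have := hc.rest
    rw [← hR] at this
    rw [this]
    congr 1
    ring
  have h3 : pR y = -((1 - 2 * τ) / (2 * τ + δ)) • pR x :=
    smul_right_injective R (two_ne_zero) h2
  exact ⟨h3, hR ▸ h3⟩

/-- squared distance from the apex to a point with the base `R`-part -/
theorem norm_sub_rest_sq {δ τ : ℝ} (hτ : 0 < τ) (hδ : 0 ≤ δ) (v : R) :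
    ‖v - -((1 - 2 * τ) / (2 * τ + δ)) • v‖ ^ 2 = ((1 + δ) / (2 * τ + δ)) ^ 2 * ‖v‖ ^ 2 := by
  have h0 : 2 * τ + δ ≠ 0 := by positivity
  have : v - -((1 - 2 * τ) / (2 * τ + δ)) • v = ((1 + δ) / (2 * τ + δ)) • v := by
    rw [neg_smul, sub_neg_eq_add]
    nth_rewrite 1 [← one_smul ℝ v]
    rw [← add_smul]
    congr 1
    field_simp
    ring
  rw [this, norm_smul, mul_pow, Real.norm_eq_abs, sq_abs]

/-- **Contact ⇒ base vertices**: the equality conditions force the two base vertices and the apex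
equation. -/
theorem base_of_eqCond (hsplit : Split pP pR) {s δ τ : ℝ} (hτ : 0 < τ) (hτ' : τ < 1 / 2)
    (hδ : 0 < δ) {x y z : E} (hx : pP x ≠ 0) (hc : EqCond pP pR s δ τ x y z) :
    pR y = -((1 - 2 * τ) / (2 * τ + δ)) • pR x ∧ pR z = -((1 - 2 * τ) / (2 * τ + δ)) • pR x ∧
    ((pP y = baseP ((1 - 2 * τ) / τ) (Lb s τ) (pP x)
        ∧ pP z = baseP ((1 - 2 * τ) / τ) (-Lb s τ) (pP x)) ∨
      (pP y = baseP ((1 - 2 * τ) / τ) (-Lb s τ) (pP x)
        ∧ pP z = baseP ((1 - 2 * τ) / τ) (Lb s τ) (pP x))) ∧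
    ApexEq pP pR s δ τ x := by
  obtain ⟨hyR, hzR⟩ := rest_of_eqCond hδ hc
  have hκ : 0 < (1 - 2 * τ) / τ := div_pos (by linarith) hτ
  have e1 := hsplit x y
  have e2 := hsplit x z
  have e3 := hsplit y z
  rw [hc.dxy] at e1
  rw [hc.dxz] at e2
  rw [hc.dyz, hyR, hzR, sub_self, norm_zero] at e3
  have hd : ‖pP x - pP y‖ ^ 2 = ‖pP x - pP z‖ ^ 2 := by
    rw [hyR] at e1
    rw [hzR] at e2
    linarith
  have hbc : ‖pP y - pP z‖ ^ 2 = Lb s τ ^ 2 := by
    rw [Lb_sq hτ]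
    linarith
  have hpl := plane_contact hx (by linarith : (1 - 2 * τ) / τ ≠ -2) hc.plane hd hbc
  have hκ2 : (1 + (1 - 2 * τ) / τ / 2) ^ 2 * ‖pP x‖ ^ 2 = ‖pP x‖ ^ 2 / (4 * τ ^ 2) := by
    field_simp
    ring
  refine ⟨hyR, hzR, hpl, ?_⟩
  unfold ApexEq
  have hrest := norm_sub_rest_sq hτ hδ.le (pR x)
  rw [hyR, hrest] at e1
  rcases hpl with ⟨hy, -⟩ | ⟨hy, -⟩
  · rw [hy, norm_sub_baseP_sq _ _ hx, hκ2, Lb_sq hτ] at e1
    linarith
  · rw [hy, norm_sub_baseP_sq _ _ hx, hκ2, neg_sq, Lb_sq hτ] at e1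
    linarith

/-- **Base vertices ⇒ contact**: the apex equation and the explicit base vertices give the
equality conditions. -/
theorem eqCond_of_base (hsplit : Split pP pR) {s δ τ : ℝ} (hτ : 0 < τ) (hδ : 0 ≤ δ)
    {x y z : E} (hx : pP x ≠ 0) (hapex : ApexEq pP pR s δ τ x)
    (hyP : pP y = baseP ((1 - 2 * τ) / τ) (Lb s τ) (pP x))
    (hzP : pP z = baseP ((1 - 2 * τ) / τ) (-Lb s τ) (pP x))
    (hyR : pR y = -((1 - 2 * τ) / (2 * τ + δ)) • pR x)
    (hzR : pR z = -((1 - 2 * τ) / (2 * τ + δ)) • pR x) :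
    EqCond pP pR s δ τ x y z := by
  unfold ApexEq at hapex
  have hκ2 : (1 + (1 - 2 * τ) / τ / 2) ^ 2 * ‖pP x‖ ^ 2 = ‖pP x‖ ^ 2 / (4 * τ ^ 2) := by
    field_simp
    ring
  have hrest := norm_sub_rest_sq hτ hδ (pR x)
  refine ⟨?_, ?_, ?_, ?_, ?_, fun _ => by rw [hyR, hzR]⟩
  · rw [hsplit x y, hyP, hyR, norm_sub_baseP_sq _ _ hx, hκ2, hrest, Lb_sq hτ]
    linarith
  · rw [hsplit x z, hzP, hzR, norm_sub_baseP_sq _ _ hx, hκ2, hrest, neg_sq, Lb_sq hτ]
    linarith
  · rw [hsplit y z, hyP, hzP, hyR, hzR, norm_baseP_sub_baseP_sq _ _ hx, sub_self, norm_zero,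
      Lb_sq hτ]
    ring
  · rw [hyP, hzP, baseP_add]
  · rw [hyR, hzR, ← add_smul]
    congr 1
    ring

/-- **Contact on the triangles** (duality form). -/
theorem contact_of_base (hsplit : Split pP pR) {s δ τ : ℝ} (hs : 0 < s) (hτ : 0 < τ)
    (hτ' : τ < 1 / 2) (hδ : 0 ≤ δ) {x y z : E} (hx : pP x ≠ 0) (hapex : ApexEq pP pR s δ τ x)
    (hyP : pP y = baseP ((1 - 2 * τ) / τ) (Lb s τ) (pP x))
    (hzP : pP z = baseP ((1 - 2 * τ) / τ) (-Lb s τ) (pP x))
    (hyR : pR y = -((1 - 2 * τ) / (2 * τ + δ)) • pR x)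
    (hzR : pR z = -((1 - 2 * τ) / (2 * τ + δ)) • pR x) :
    tripleCost s (x, y, z)
      = ENNReal.ofReal (uA pP pR s δ τ x + uB pP pR s δ y + uB pP pR s δ z) :=
  eq_of_cond hsplit hs hτ hτ' hδ (eqCond_of_base hsplit hτ hδ hx hapex hyP hzP hyR hzR)
    (by rw [hyR, hzR])

/-- On a contact triangle the sum of the potentials is positive (it is the cost). -/
theorem sum_pos_of_base (hsplit : Split pP pR) {s δ τ : ℝ} (hs : 0 < s) (hτ : 0 < τ)
    (hτ' : τ < 1 / 2) (hδ : 0 ≤ δ) {x y z : E} (hx : pP x ≠ 0) (hapex : ApexEq pP pR s δ τ x)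
    (hyP : pP y = baseP ((1 - 2 * τ) / τ) (Lb s τ) (pP x))
    (hzP : pP z = baseP ((1 - 2 * τ) / τ) (-Lb s τ) (pP x))
    (hyR : pR y = -((1 - 2 * τ) / (2 * τ + δ)) • pR x)
    (hzR : pR z = -((1 - 2 * τ) / (2 * τ + δ)) • pR x) :
    0 < uA pP pR s δ τ x + uB pP pR s δ y + uB pP pR s δ z := by
  have hc := eqCond_of_base hsplit (s := s) hτ hδ hx hapex hyP hzP hyR hzR
  rw [eq_of_cond_real hsplit hs hτ hτ' hδ hc (by rw [hyR, hzR])]
  have h1 : 0 < ‖x - y‖ ^ 2 := by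
    rw [hc.dxy]; exact Real.rpow_pos_of_pos (by linarith) _
  have h2 : 0 < ‖x - y‖ := by
    rcases (norm_nonneg (x - y)).eq_or_lt with h | h
    · rw [← h] at h1; simp at h1
    · exact h
  have := Real.rpow_pos_of_pos h2 (-s)
  have := Real.rpow_nonneg (norm_nonneg (x - z)) (-s)
  have := Real.rpow_nonneg (norm_nonneg (y - z)) (-s)
  linarith

/-- **Contact ⇒ base vertices** (duality form): a triple with cost `≤` the sum of the potentials
(apex parameter `τ`, apex off the axis) consists of the apex and the two base vertices. -/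
theorem base_of_contact (hsplit : Split pP pR) {s δ τ : ℝ} (hs : 0 < s) (hτ : 0 < τ)
    (hτ' : τ < 1 / 2) (hδ : 0 < δ) {x y z : E} (hx : pP x ≠ 0)
    (h : tripleCost s (x, y, z)
      ≤ ENNReal.ofReal (uA pP pR s δ τ x + uB pP pR s δ y + uB pP pR s δ z)) :
    pR y = -((1 - 2 * τ) / (2 * τ + δ)) • pR x ∧ pR z = -((1 - 2 * τ) / (2 * τ + δ)) • pR x ∧
    ((pP y = baseP ((1 - 2 * τ) / τ) (Lb s τ) (pP x)
        ∧ pP z = baseP ((1 - 2 * τ) / τ) (-Lb s τ) (pP x)) ∨
      (pP y = baseP ((1 - 2 * τ) / τ) (-Lb s τ) (pP x)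
        ∧ pP z = baseP ((1 - 2 * τ) / τ) (Lb s τ) (pP x))) ∧
    ApexEq pP pR s δ τ x :=
  base_of_eqCond hsplit hτ hτ' hδ hx (eq_case hsplit hs hτ hτ' hδ.le h).2

omit [NormedAddCommGroup E] [InnerProductSpace ℝ R] in
/-- **Uniqueness of the apex parameter**: the left side minus the right side of the apex equation
is strictly decreasing in `τ`. -/
theorem apexEq_unique {s δ τ₁ τ₂ : ℝ} (hs : 0 < s) (hδ : 0 ≤ δ) (h₁ : 0 < τ₁) (h₁' : τ₁ < 1 / 2)
    (h₂ : 0 < τ₂) (h₂' : τ₂ < 1 / 2) {x : E} (e₁ : ApexEq pP pR s δ τ₁ x)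
    (e₂ : ApexEq pP pR s δ τ₂ x) : τ₁ = τ₂ := by
  -- strict monotonicity on ordered pairs
  have key : ∀ {τ τ' : ℝ}, 0 < τ → τ < τ' → τ' < 1 / 2 → ApexEq pP pR s δ τ x →
      ApexEq pP pR s δ τ' x → False := by
    intro τ τ' hτ hlt hτ' e e'
    unfold ApexEq at e e'
    have hτ'pos : 0 < τ' := hτ.trans hlt
    have hneg : -(2 / (s + 2)) < 0 := by
      have : 0 < 2 / (s + 2) := by positivity
      linarith
    have a1 : ‖pP x‖ ^ 2 / (4 * τ' ^ 2) ≤ ‖pP x‖ ^ 2 / (4 * τ ^ 2) := by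
      apply div_le_div_of_nonneg_left (by positivity) (by positivity)
      have : τ ^ 2 < τ' ^ 2 := by nlinarith
      linarith
    have a2 : ((1 + δ) / (2 * τ' + δ)) ^ 2 * ‖pR x‖ ^ 2
        ≤ ((1 + δ) / (2 * τ + δ)) ^ 2 * ‖pR x‖ ^ 2 := by
      apply mul_le_mul_of_nonneg_right _ (by positivity)
      apply pow_le_pow_left₀ (by positivity)
      apply div_le_div_of_nonneg_left (by positivity) (by positivity)
      linarith
    have a3 : (1 - 2 * τ) ^ (-(2 / (s + 2))) < (1 - 2 * τ') ^ (-(2 / (s + 2))) :=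
      Real.rpow_lt_rpow_of_neg (by linarith) (by linarith) hneg
    have a4 : τ' ^ (-(2 / (s + 2))) < τ ^ (-(2 / (s + 2))) :=
      Real.rpow_lt_rpow_of_neg hτ hlt hneg
    linarith
  rcases lt_trichotomy τ₁ τ₂ with h | h | h
  · exact (key h₁ h h₂' e₁ e₂).elim
  · exact h
  · exact (key h₂ h h₁' e₂ e₁).elim

end Contact

end Crest.Agent.Helper31.Riesz
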